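import Mathlib

set_option autoImplicit false
open MeasureTheory

namespace Crest.Agent.helper4

abbrev E3 : Type := EuclideanSpace ℝ (Fin 3)

/-- Gram determinant of two vectors. -/
noncomputable def gram (u v : E3) : ℝ := ‖u‖ ^ 2 * ‖v‖ ^ 2 - inner ℝ u v ^ 2

/-- orthogonal projection along `d` as a linear map (junk if `d = 0`). -/
noncomputable def projL (d : E3) : E3 →ₗ[ℝ] E3 where
  toFun y := y - (inner ℝ y d / ‖d‖ ^ 2) • d
  map_add' x y := by
    simp only [inner_add_left, add_div, add_smul]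
    abel
  map_smul' c x := by
    simp only [inner_smul_left, RingHom.id_apply, smul_sub, smul_smul, mul_div_assoc]
    simp

lemma projL_apply (d y : E3) : projL d y = y - (inner ℝ y d / ‖d‖ ^ 2) • d := rfl

lemma inner3 (u v : E3) : inner ℝ u v = u 0 * v 0 + u 1 * v 1 + u 2 * v 2 := by
  simp [PiLp.inner_apply, Fin.sum_univ_three]
  ring

lemma normsq3 (u : E3) : ‖u‖ ^ 2 = u 0 * u 0 + u 1 * u 1 + u 2 * u 2 := by
  rw [← real_inner_self_eq_norm_sq, inner3]

/-- three vectors orthogonal to a unit vector have vanishing Gram determinant -/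
lemma gram3_zero (e u v w : E3) (he : ‖e‖ = 1) (hu : inner ℝ u e = 0) (hv : inner ℝ v e = 0)
    (hw : inner ℝ w e = 0) :
    ‖w‖ ^ 2 * gram u v =
      ‖u‖ ^ 2 * inner ℝ v w ^ 2 - 2 * inner ℝ u v * inner ℝ u w * inner ℝ v w
        + ‖v‖ ^ 2 * inner ℝ u w ^ 2 := by
  have he2 : ‖e‖ ^ 2 = 1 := by rw [he]; norm_num
  unfold gram
  rw [normsq3] at he2
  rw [inner3] at hu hv hw
  simp only [normsq3, inner3]
  set u0 := u 0; set u1 := u 1; set u2 := u 2
  set v0 := v 0; set v1 := v 1; set v2 := v 2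
  set w0 := w 0; set w1 := w 1; set w2 := w 2
  set e0 := e 0; set e1 := e 1; set e2 := e 2
  have hdet0 : (u0 * (v1 * w2 - v2 * w1) - u1 * (v0 * w2 - v2 * w0) + u2 * (v0 * w1 - v1 * w0)) * e0 = 0 := by
    linear_combination (v1 * w2 - v2 * w1) * hu - (u1 * w2 - u2 * w1) * hv + (u1 * v2 - u2 * v1) * hw
  have hdet1 : (u0 * (v1 * w2 - v2 * w1) - u1 * (v0 * w2 - v2 * w0) + u2 * (v0 * w1 - v1 * w0)) * e1 = 0 := by
    linear_combination -(v0 * w2 - v2 * w0) * hu + (u0 * w2 - u2 * w0) * hv - (u0 * v2 - u2 * v0) * hw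
  have hdet2 : (u0 * (v1 * w2 - v2 * w1) - u1 * (v0 * w2 - v2 * w0) + u2 * (v0 * w1 - v1 * w0)) * e2 = 0 := by
    linear_combination (v0 * w1 - v1 * w0) * hu - (u0 * w1 - u1 * w0) * hv + (u0 * v1 - u1 * v0) * hw
  set det := (u0 * (v1 * w2 - v2 * w1) - u1 * (v0 * w2 - v2 * w0) + u2 * (v0 * w1 - v1 * w0)) with hdet
  have hd : det ^ 2 = 0 := by
    have : det ^ 2 = det ^ 2 * (e0 * e0 + e1 * e1 + e2 * e2) := by rw [he2]; ring
    rw [this]
    linear_combination det * e0 * hdet0 + det * e1 * hdet1 + det * e2 * hdet2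
  linear_combination hd

lemma normsq_e_add (e w : E3) (he : ‖e‖ = 1) (hw : inner ℝ w e = 0) :
    ‖e + w‖ ^ 2 = 1 + ‖w‖ ^ 2 := by
  rw [← real_inner_self_eq_norm_sq, inner_add_left, inner_add_right, inner_add_right,
    real_inner_self_eq_norm_sq, real_inner_self_eq_norm_sq, hw, real_inner_comm, hw, he]
  ring

lemma inner_e_add (e w u : E3) (hu : inner ℝ u e = 0) :
    inner ℝ u (e + w) = inner ℝ u w := by
  rw [inner_add_right, hu, zero_add]

lemma inner_projL (d u v : E3) (hd : ‖d‖ ^ 2 ≠ 0) :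
    inner ℝ (projL d u) (projL d v) = inner ℝ u v - inner ℝ u d * inner ℝ v d / ‖d‖ ^ 2 := by
  simp only [projL_apply, inner_sub_left, inner_sub_right, inner_smul_left, inner_smul_right,
    real_inner_self_eq_norm_sq, RCLike.conj_to_real]
  rw [real_inner_comm v d]
  have hd' : ‖d‖ ≠ 0 := fun h => hd (by rw [h]; norm_num)
  field_simp
  ring

lemma inner_projL_self (d u : E3) (hd : ‖d‖ ^ 2 ≠ 0) : inner ℝ (projL d u) d = 0 := by
  simp only [projL_apply, inner_sub_left, inner_smul_left, real_inner_self_eq_norm_sq,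
    RCLike.conj_to_real]
  have hd' : ‖d‖ ≠ 0 := fun h => hd (by rw [h]; norm_num)
  field_simp
  ring

lemma projL_self (d : E3) (hd : ‖d‖ ^ 2 ≠ 0) : projL d d = 0 := by
  simp only [projL_apply, real_inner_self_eq_norm_sq]
  rw [div_self hd, one_smul, sub_self]

lemma gram_projL (e u v w : E3) (he : ‖e‖ = 1) (hu : inner ℝ u e = 0) (hv : inner ℝ v e = 0)
    (hw : inner ℝ w e = 0) :
    gram (projL (e + w) u) (projL (e + w) v) = gram u v / (1 + ‖w‖ ^ 2) := by
  have hD : ‖e + w‖ ^ 2 = 1 + ‖w‖ ^ 2 := normsq_e_add e w he hw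
  have hDpos : (0:ℝ) < 1 + ‖w‖ ^ 2 := by positivity
  have hD0 : ‖e + w‖ ^ 2 ≠ 0 := by rw [hD]; exact hDpos.ne'
  have h3 := gram3_zero e u v w he hu hv hw
  unfold gram at h3 ⊢
  rw [← real_inner_self_eq_norm_sq (projL (e + w) u), ← real_inner_self_eq_norm_sq (projL (e + w) v),
    inner_projL _ _ _ hD0, inner_projL _ _ _ hD0, inner_projL _ _ _ hD0,
    inner_e_add e w u hu, inner_e_add e w v hv, hD, real_inner_self_eq_norm_sq,
    real_inner_self_eq_norm_sq]
  field_simp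
  linear_combination (1 + ‖w‖ ^ 2) * h3

lemma gram_nonneg (u v : E3) : 0 ≤ gram u v := by
  unfold gram
  have h := abs_real_inner_le_norm u v
  have h2 : inner ℝ u v ^ 2 ≤ (‖u‖ * ‖v‖) ^ 2 := by
    rw [← sq_abs (inner ℝ u v)]
    exact pow_le_pow_left₀ (abs_nonneg _) h 2
  nlinarith [h2]

lemma gram_lin (a b : E3) (l s t : ℝ) :
    gram (l • (a + s • b)) (l • (a + t • b)) = (l ^ 2 * (t - s)) ^ 2 * gram a b := by
  unfold gram
  simp only [← real_inner_self_eq_norm_sq, inner_smul_left, inner_smul_right, inner_add_left,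
    inner_add_right, RCLike.conj_to_real]
  rw [real_inner_comm a b]
  ring

end Crest.Agent.helper4
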