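import Mathlib

set_option autoImplicit false

namespace Crest.Agent.helper4

variable {E : Type*} [AddCommGroup E] [Module ℝ E]

lemma mem_hull3 {p q r : E} {l0 l1 l2 : ℝ} (h0 : 0 ≤ l0) (h1 : 0 ≤ l1) (h2 : 0 ≤ l2)
    (hs : l0 + l1 + l2 = 1) :
    l0 • p + l1 • q + l2 • r ∈ convexHull ℝ ({p, q, r} : Set E) := by
  have hc := convex_convexHull ℝ ({p, q, r} : Set E)
  have hp : p ∈ convexHull ℝ ({p, q, r} : Set E) := subset_convexHull ℝ _ (by simp)
  have hq : q ∈ convexHull ℝ ({p, q, r} : Set E) := subset_convexHull ℝ _ (by simp)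
  have hr : r ∈ convexHull ℝ ({p, q, r} : Set E) := subset_convexHull ℝ _ (by simp)
  have := hc.sum_mem (t := Finset.univ) (w := ![l0, l1, l2]) (z := ![p, q, r])
    (by intro i _; fin_cases i <;> simp [h0, h1, h2])
    (by simp [Fin.sum_univ_three, hs])
    (by intro i _; fin_cases i <;> simp [hp, hq, hr])
  simpa [Fin.sum_univ_three] using this

lemma exists_of_mem_hull3 {p q r x : E} (hx : x ∈ convexHull ℝ ({p, q, r} : Set E)) :
    ∃ l0 l1 l2 : ℝ, 0 ≤ l0 ∧ 0 ≤ l1 ∧ 0 ≤ l2 ∧ l0 + l1 + l2 = 1 ∧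
      x = l0 • p + l1 • q + l2 • r := by
  have hmin : convexHull ℝ ({p, q, r} : Set E) ⊆
      {x | ∃ l0 l1 l2 : ℝ, 0 ≤ l0 ∧ 0 ≤ l1 ∧ 0 ≤ l2 ∧ l0 + l1 + l2 = 1 ∧
        x = l0 • p + l1 • q + l2 • r} := by
    apply convexHull_min
    · intro y hy
      simp only [Set.mem_insert_iff, Set.mem_singleton_iff] at hy
      rcases hy with rfl | rfl | rfl
      · exact ⟨1, 0, 0, by norm_num, le_rfl, le_rfl, by norm_num, by simp⟩
      · exact ⟨0, 1, 0, le_rfl, by norm_num, le_rfl, by norm_num, by simp⟩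
      · exact ⟨0, 0, 1, le_rfl, le_rfl, by norm_num, by norm_num, by simp⟩
    · rintro y ⟨l0, l1, l2, h0, h1, h2, hs, rfl⟩ z ⟨m0, m1, m2, k0, k1, k2, ks, rfl⟩ a b ha hb hab
      refine ⟨a * l0 + b * m0, a * l1 + b * m1, a * l2 + b * m2, by positivity, by positivity,
        by positivity, ?_, ?_⟩
      · calc a * l0 + b * m0 + (a * l1 + b * m1) + (a * l2 + b * m2)
            = a * (l0 + l1 + l2) + b * (m0 + m1 + m2) := by ring
          _ = 1 := by rw [hs, ks]; linarith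
      · module
  exact hmin hx

end Crest.Agent.helper4
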