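import Mathlib
import Crest.Agent.Lib_helper4.Gram
import Crest.Agent.Lib_helper4.Hull

set_option autoImplicit false
open MeasureTheory

namespace Crest.Agent.helper4

/-- the apex of the outer horizontal triangle -/
noncomputable def apex (a b p₀ : E3) (t0 t1 μ : ℝ) : E3 :=
  p₀ - (4 * μ) • (a + ((t0 + t1) / 2) • b)

/-- pure algebra: the horizontal point lies in the outer triangle, with explicit weights -/
lemma outer_weights (a b p₀ : E3) (t0 t1 τ ρ s A0 A1 μ ℓ : ℝ) (h01 : t0 < t1)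
    (hτ0 : t0 ≤ τ) (hτ1 : τ ≤ t1) (hμ : 0 < μ) (hx1 : -μ ≤ ρ + s * A0)
    (hx2 : ρ + s * A0 + 4 * μ ≤ ℓ) (hy : |s * (A1 - τ * A0)| ≤ μ * (t1 - t0)) :
    ∃ l0 l1 l2 : ℝ, 0 ≤ l0 ∧ 0 ≤ l1 ∧ 0 ≤ l2 ∧ l0 + l1 + l2 = 1 ∧
      p₀ + ρ • (a + τ • b) + s • (A0 • a + A1 • b) =
        l0 • apex a b p₀ t0 t1 μ + l1 • (apex a b p₀ t0 t1 μ + ℓ • (a + t0 • b)) +
          l2 • (apex a b p₀ t0 t1 μ + ℓ • (a + t1 • b)) := by
  set x := ρ + s * A0 with hx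
  set Δ := t1 - t0 with hΔ
  have hΔpos : 0 < Δ := sub_pos.mpr h01
  set tm := (t0 + t1) / 2 with htm
  set ξ := x + 4 * μ with hξ
  set y' := x * (τ - tm) + s * (A1 - τ * A0) with hy'
  have hξpos : 0 < ξ := by rw [hξ]; linarith
  have hℓ : 0 < ℓ := lt_of_lt_of_le hξpos hx2
  have hτm : |τ - tm| ≤ Δ / 2 := by
    rw [abs_le, htm, hΔ]; constructor <;> linarith
  have hxabs : |x| + 2 * μ ≤ ξ := by
    rw [hξ]
    rcases abs_cases x with ⟨h, _⟩ | ⟨h, _⟩ <;> rw [h] <;> linarith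
  have hyabs : |y'| ≤ Δ / 2 * ξ := by
    calc |y'| ≤ |x * (τ - tm)| + |s * (A1 - τ * A0)| := abs_add_le _ _
      _ ≤ |x| * (Δ / 2) + μ * Δ := by
          rw [abs_mul]
          exact add_le_add (mul_le_mul_of_nonneg_left hτm (abs_nonneg _)) hy
      _ = Δ / 2 * (|x| + 2 * μ) := by ring
      _ ≤ Δ / 2 * ξ := mul_le_mul_of_nonneg_left hxabs (by positivity)
  have hy2 : |2 * y' / Δ| ≤ ξ := by
    rw [abs_div, abs_mul, abs_of_pos hΔpos, abs_of_pos (by norm_num : (0:ℝ) < 2), div_le_iff₀ hΔpos]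
    linarith
  rw [abs_le] at hy2
  refine ⟨1 - ξ / ℓ, (ξ - 2 * y' / Δ) / (2 * ℓ), (ξ + 2 * y' / Δ) / (2 * ℓ), ?_, ?_, ?_, ?_, ?_⟩
  · rw [sub_nonneg, div_le_one hℓ]; exact hx2
  · apply div_nonneg _ (by positivity); linarith [hy2.2]
  · apply div_nonneg _ (by positivity); linarith [hy2.1]
  · field_simp; ring
  · set l0 := 1 - ξ / ℓ with hl0
    set l1 := (ξ - 2 * y' / Δ) / (2 * ℓ) with hl1
    set l2 := (ξ + 2 * y' / Δ) / (2 * ℓ) with hl2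
    have hs : l0 + l1 + l2 = 1 := by rw [hl0, hl1, hl2]; field_simp; ring
    have hX : (l1 + l2) * ℓ - (l0 + l1 + l2) * (4 * μ) = ρ + s * A0 := by
      rw [hs, hl1, hl2]; field_simp; rw [hξ, hx]; ring
    have hY : (l1 * t0 + l2 * t1) * ℓ - (l0 + l1 + l2) * (4 * μ * tm) = ρ * τ + s * A1 := by
      rw [hs, hl1, hl2]; field_simp; rw [hy', hξ, hx, htm, hΔ]; field_simp; ring
    have hR : l0 • apex a b p₀ t0 t1 μ + l1 • (apex a b p₀ t0 t1 μ + ℓ • (a + t0 • b)) +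
          l2 • (apex a b p₀ t0 t1 μ + ℓ • (a + t1 • b)) =
        (l0 + l1 + l2) • p₀ + ((l1 + l2) * ℓ - (l0 + l1 + l2) * (4 * μ)) • a +
          ((l1 * t0 + l2 * t1) * ℓ - (l0 + l1 + l2) * (4 * μ * tm)) • b := by
      unfold apex
      module
    rw [hR, hX, hY, hs]
    module

end Crest.Agent.helper4
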