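import Mathlib
import Crest.Agent.Lib_helper4.Gram

set_option autoImplicit false
open MeasureTheory

namespace Crest.Agent.helper4

lemma w_diff (a b : E3) (α β : ℝ) (w : ℝ → E3) (lam : ℝ → ℝ)
    (hlam : ContinuousOn lam (Set.Icc α β))
    (hw' : ∀ t ∈ Set.Icc α β, HasDerivWithinAt w (lam t • (a + t • b)) (Set.Icc α β) t)
    (Λ : ℝ) (hΛ : ∀ t ∈ Set.Icc α β, |lam t| ≤ Λ) (c τ : ℝ) (hc : c ∈ Set.Icc α β)
    (hτ : τ ∈ Set.Icc α β) :
    ∃ A0 A1 : ℝ, w τ - w c = A0 • a + A1 • b ∧ |A0| ≤ Λ * |τ - c| ∧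
      |A1 - τ * A0| ≤ Λ * |τ - c| ^ 2 := by
  have hsub : Set.uIcc c τ ⊆ Set.Icc α β := Set.uIcc_subset_Icc hc hτ
  have hlam' : ContinuousOn lam (Set.uIcc c τ) := hlam.mono hsub
  have hi0 : IntervalIntegrable lam volume c τ := hlam'.intervalIntegrable
  have hi1 : IntervalIntegrable (fun σ => lam σ * σ) volume c τ :=
    (hlam'.mul continuousOn_id).intervalIntegrable
  have hia : IntervalIntegrable (fun σ => lam σ • a) volume c τ :=
    (hlam'.smul continuousOn_const).intervalIntegrable
  have hib : IntervalIntegrable (fun σ => (lam σ * σ) • b) volume c τ :=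
    ((hlam'.mul continuousOn_id).smul continuousOn_const).intervalIntegrable
  have hcont : ContinuousOn w (Set.uIcc c τ) := fun x hx =>
    ((hw' x (hsub hx)).continuousWithinAt).mono hsub
  have hderiv : ∀ x ∈ Set.Ioo (min c τ) (max c τ),
      HasDerivWithinAt w (lam x • (a + x • b)) (Set.Ioi x) x := by
    intro x hx
    have hx' : x ∈ Set.Ioo α β := by
      constructor
      · exact lt_of_le_of_lt (le_min hc.1 hτ.1) hx.1
      · exact lt_of_lt_of_le hx.2 (max_le hc.2 hτ.2)
    have := (hw' x ⟨hx'.1.le, hx'.2.le⟩).hasDerivAt (Icc_mem_nhds hx'.1 hx'.2)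
    exact this.hasDerivWithinAt
  have heq : (fun σ => lam σ • (a + σ • b)) = fun σ => lam σ • a + (lam σ * σ) • b := by
    funext σ
    rw [smul_add, smul_smul]
  have hint : IntervalIntegrable (fun σ => lam σ • (a + σ • b)) volume c τ := by
    rw [heq]
    exact hia.add hib
  have hftc := intervalIntegral.integral_eq_sub_of_hasDeriv_right hcont hderiv hint
  refine ⟨∫ σ in c..τ, lam σ, ∫ σ in c..τ, lam σ * σ, ?_, ?_, ?_⟩
  · rw [← hftc, heq, intervalIntegral.integral_add hia hib,
      intervalIntegral.integral_smul_const, intervalIntegral.integral_smul_const]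
  · have := intervalIntegral.norm_integral_le_of_norm_le_const (a := c) (b := τ)
      (f := lam) (C := Λ) (by
        intro x hx
        exact hΛ x (hsub (Set.uIoc_subset_uIcc hx)))
    simpa using this
  · have h1 : (∫ σ in c..τ, lam σ * σ) - τ * ∫ σ in c..τ, lam σ
        = ∫ σ in c..τ, lam σ * (σ - τ) := by
      rw [← intervalIntegral.integral_const_mul, ← intervalIntegral.integral_sub hi1 (hi0.const_mul τ)]
      congr 1
      funext σ
      ring
    rw [h1]
    have := intervalIntegral.norm_integral_le_of_norm_le_const (a := c) (b := τ)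
      (f := fun σ => lam σ * (σ - τ)) (C := Λ * |τ - c|) (by
        intro x hx
        have hx' := Set.uIoc_subset_uIcc hx
        rw [Real.norm_eq_abs, abs_mul]
        have h2 : |x - τ| ≤ |τ - c| := by
          rw [abs_sub_comm x τ]
          exact Set.abs_sub_right_of_mem_uIcc hx'
        have h3 := hΛ x (hsub hx')
        exact mul_le_mul h3 h2 (abs_nonneg _) ((abs_nonneg _).trans h3))
    rw [Real.norm_eq_abs] at this
    calc _ ≤ Λ * |τ - c| * |τ - c| := this
      _ = Λ * |τ - c| ^ 2 := by ring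

end Crest.Agent.helper4
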