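import Mathlib
import Crest.Agent.Lib_Cyl.Cyl
import Crest.Agent.Lib_helper4.Gram
import Crest.Agent.Lib_helper4.Hull
import Crest.Agent.Lib_helper4.Shadow
import Crest.Agent.Lib_helper4.WDiff

set_option autoImplicit false
open MeasureTheory

namespace Crest.Agent.helper4

lemma gram_eq (u v : E3) : Crest.Agent.Cyl.gram u v = gram u v := rfl

lemma inner_v (e a b : E3) (ha : inner ℝ a e = 0) (hb : inner ℝ b e = 0) (l t : ℝ) :
    inner ℝ (l • (a + t • b)) e = 0 := by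
  rw [inner_smul_left, inner_add_left, inner_smul_left, ha, hb]; simp

lemma gram_cell (e a b w0 P : E3) (he : ‖e‖ = 1) (ha : inner ℝ a e = 0) (hb : inner ℝ b e = 0)
    (hw0 : inner ℝ w0 e = 0) (ℓ t0 t1 : ℝ) :
    gram (projL (e + w0) (P + ℓ • (a + t0 • b)) - projL (e + w0) P)
        (projL (e + w0) (P + ℓ • (a + t1 • b)) - projL (e + w0) P) =
      (ℓ ^ 2 * (t1 - t0)) ^ 2 * gram a b / (1 + ‖w0‖ ^ 2) := by
  rw [map_add, map_add, add_sub_cancel_left, add_sub_cancel_left,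
    gram_projL e _ _ w0 he (inner_v e a b ha hb _ _) (inner_v e a b ha hb _ _) hw0, gram_lin]

lemma area_cell (e a b w0 P : E3) (he : ‖e‖ = 1) (ha : inner ℝ a e = 0) (hb : inner ℝ b e = 0)
    (hw0 : inner ℝ w0 e = 0) (ℓ t0 t1 : ℝ) (h01 : t0 ≤ t1) :
    μHE[2] (convexHull ℝ ({projL (e + w0) P, projL (e + w0) (P + ℓ • (a + t0 • b)),
        projL (e + w0) (P + ℓ • (a + t1 • b))} : Set E3)) =
      ENNReal.ofReal (Real.sqrt (gram a b) *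
        ((t1 - t0) * (ℓ ^ 2 / (2 * Real.sqrt (1 + ‖w0‖ ^ 2))))) := by
  rw [Crest.Agent.Cyl.area_tri, gram_eq, gram_cell e a b w0 P he ha hb hw0]
  congr 1
  have h1 : 0 ≤ ℓ ^ 2 * (t1 - t0) := mul_nonneg (sq_nonneg _) (sub_nonneg.mpr h01)
  rw [Real.sqrt_div (mul_nonneg (sq_nonneg _) (gram_nonneg a b)),
    Real.sqrt_mul (sq_nonneg _), Real.sqrt_sq h1]
  have h2 : 0 < Real.sqrt (1 + ‖w0‖ ^ 2) := Real.sqrt_pos.mpr (by positivity)
  field_simp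

/-- Outer covering: the projection of a point of the piece lies in the outer projected triangle. -/
lemma cell_outer (e a b p₀ : E3) (he : ‖e‖ = 1) (α β : ℝ) (R : ℝ → ℝ) (w : ℝ → E3) (lam : ℝ → ℝ)
    (hlam : ContinuousOn lam (Set.Icc α β))
    (hw' : ∀ t ∈ Set.Icc α β, HasDerivWithinAt w (lam t • (a + t • b)) (Set.Icc α β) t)
    (hwe : ∀ t ∈ Set.Icc α β, inner ℝ (w t) e = 0)
    (Λ L μ ω : ℝ) (hΛ : ∀ t ∈ Set.Icc α β, |lam t| ≤ Λ) (hμ : 0 < μ)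
    (t0 t1 c : ℝ) (h01 : t0 < t1) (ht0 : α ≤ t0) (ht1 : t1 ≤ β) (hc0 : t0 ≤ c) (hc1 : c ≤ t1)
    (hmesh : L * Λ * (t1 - t0) ≤ μ)
    (hRω : ∀ τ ∈ Set.Icc t0 t1, R τ ≤ R c + ω)
    (τ ρ s : ℝ) (hτ : τ ∈ Set.Icc t0 t1) (hρ : ρ ∈ Set.Icc 0 (R τ)) (hs : |s| ≤ L) :
    projL (e + w c) (p₀ + ρ • (a + τ • b) + s • (e + w τ)) ∈
      convexHull ℝ ({projL (e + w c) (apex a b p₀ t0 t1 μ),
        projL (e + w c) (apex a b p₀ t0 t1 μ + (R c + ω + 5 * μ) • (a + t0 • b)),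
        projL (e + w c) (apex a b p₀ t0 t1 μ + (R c + ω + 5 * μ) • (a + t1 • b))} : Set E3) := by
  have hcI : c ∈ Set.Icc α β := ⟨ht0.trans hc0, hc1.trans ht1⟩
  have hτI : τ ∈ Set.Icc α β := ⟨ht0.trans hτ.1, hτ.2.trans ht1⟩
  obtain ⟨A0, A1, hw, hA0, hA1⟩ := w_diff a b α β w lam hlam hw' Λ hΛ c τ hcI hτI
  have hΛ0 : 0 ≤ Λ := (abs_nonneg _).trans (hΛ c hcI)
  have hL0 : 0 ≤ L := (abs_nonneg _).trans hs
  have hΔ : |τ - c| ≤ t1 - t0 := by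
    rw [abs_le]; constructor <;> linarith [hτ.1, hτ.2]
  have hΔ0 : 0 ≤ t1 - t0 := (sub_pos.mpr h01).le
  have hD0 : ‖e + w c‖ ^ 2 ≠ 0 := by
    rw [normsq_e_add e (w c) he (hwe c hcI)]; positivity
  have hsA0 : |s * A0| ≤ μ := by
    rw [abs_mul]
    calc |s| * |A0| ≤ L * (Λ * (t1 - t0)) :=
          mul_le_mul hs (hA0.trans (mul_le_mul_of_nonneg_left hΔ hΛ0)) (abs_nonneg _) hL0
      _ = L * Λ * (t1 - t0) := by ring
      _ ≤ μ := hmesh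
  have hsA1 : |s * (A1 - τ * A0)| ≤ μ * (t1 - t0) := by
    rw [abs_mul]
    have h2 : |τ - c| ^ 2 ≤ (t1 - t0) ^ 2 := pow_le_pow_left₀ (abs_nonneg _) hΔ 2
    calc |s| * |A1 - τ * A0| ≤ L * (Λ * (t1 - t0) ^ 2) :=
          mul_le_mul hs (hA1.trans (mul_le_mul_of_nonneg_left h2 hΛ0)) (abs_nonneg _) hL0
      _ = (L * Λ * (t1 - t0)) * (t1 - t0) := by ring
      _ ≤ μ * (t1 - t0) := mul_le_mul_of_nonneg_right hmesh hΔ0
  rw [abs_le] at hsA0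
  obtain ⟨l0, l1, l2, h0, h1, h2, hsum, hEq⟩ := outer_weights a b p₀ t0 t1 τ ρ s A0 A1 μ
    (R c + ω + 5 * μ) h01 hτ.1 hτ.2 hμ (by linarith [hρ.1, hsA0.1])
    (by linarith [hρ.2, hsA0.2, hRω τ hτ]) hsA1
  have hx : p₀ + ρ • (a + τ • b) + s • (e + w τ) =
      (p₀ + ρ • (a + τ • b) + s • (A0 • a + A1 • b)) + s • (e + w c) := by
    have : w τ = w c + (A0 • a + A1 • b) := by rw [← hw]; abel
    rw [this]; module
  have hpt : projL (e + w c) ((p₀ + ρ • (a + τ • b) + s • (A0 • a + A1 • b)) + s • (e + w c)) =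
      projL (e + w c) (p₀ + ρ • (a + τ • b) + s • (A0 • a + A1 • b)) := by
    rw [map_add, map_smul, projL_self _ hD0, smul_zero, add_zero]
  rw [hx, hpt, hEq]
  have hlin : ∀ X Y Z : E3, projL (e + w c) (l0 • X + l1 • Y + l2 • Z) =
      l0 • projL (e + w c) X + l1 • projL (e + w c) Y + l2 • projL (e + w c) Z := by
    intro X Y Z
    simp only [map_add, map_smul]
  rw [hlin]
  exact mem_hull3 h0 h1 h2 hsum

/-- Inner triangle: every point of the inner horizontal triangle is a point `p₀ + ρ (a + τ b)`. -/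
lemma inner_point (a b p₀ : E3) (t0 t1 r l0 l1 l2 : ℝ) (h01 : t0 ≤ t1) (hr : 0 ≤ r)
    (h1 : 0 ≤ l1) (h2 : 0 ≤ l2) (h0 : 0 ≤ l0) (hs : l0 + l1 + l2 = 1) :
    ∃ τ ρ : ℝ, t0 ≤ τ ∧ τ ≤ t1 ∧ 0 ≤ ρ ∧ ρ ≤ r ∧
      l0 • p₀ + l1 • (p₀ + r • (a + t0 • b)) + l2 • (p₀ + r • (a + t1 • b)) =
        p₀ + ρ • (a + τ • b) := by
  by_cases hz : l1 + l2 = 0
  · have e1 : l1 = 0 := by linarith
    have e2 : l2 = 0 := by linarith
    have e0 : l0 = 1 := by linarith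
    refine ⟨t0, 0, le_rfl, h01, le_rfl, hr, ?_⟩
    rw [e0, e1, e2]; simp
  · have hpos : 0 < l1 + l2 := lt_of_le_of_ne (by positivity) (Ne.symm hz)
    refine ⟨(l1 * t0 + l2 * t1) / (l1 + l2), r * (l1 + l2), ?_, ?_, by positivity, ?_, ?_⟩
    · rw [le_div_iff₀ hpos]; nlinarith
    · rw [div_le_iff₀ hpos]; nlinarith
    · calc r * (l1 + l2) ≤ r * 1 := mul_le_mul_of_nonneg_left (by linarith) hr
        _ = r := mul_one r
    · have hY : r * (l1 + l2) * ((l1 * t0 + l2 * t1) / (l1 + l2)) = r * (l1 * t0 + l2 * t1) := by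
        field_simp
      have hL : l0 • p₀ + l1 • (p₀ + r • (a + t0 • b)) + l2 • (p₀ + r • (a + t1 • b)) =
          (l0 + l1 + l2) • p₀ + (r * (l1 + l2)) • a + (r * (l1 * t0 + l2 * t1)) • b := by module
      have hR : p₀ + (r * (l1 + l2)) • (a + ((l1 * t0 + l2 * t1) / (l1 + l2)) • b) =
          p₀ + (r * (l1 + l2)) • a + (r * (l1 + l2) * ((l1 * t0 + l2 * t1) / (l1 + l2))) • b := by
        module
      rw [hL, hR, hY, hs, one_smul]

end Crest.Agent.helper4
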