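import Mathlib

set_option autoImplicit false
open MeasureTheory

namespace Crest.Agent.helper4

lemma exists_cell {N : ℕ} (t : Fin (N + 1) → ℝ) (h0N : t 0 < t (Fin.last N)) (τ : ℝ)
    (h1 : t 0 ≤ τ) (h2 : τ ≤ t (Fin.last N)) :
    ∃ i : Fin N, t i.castSucc ≤ τ ∧ τ ≤ t i.succ := by
  have key : ∀ k : Fin (N + 1), τ ≤ t k → (k = 0 ∨ ∃ i : Fin N, t i.castSucc ≤ τ ∧ τ ≤ t i.succ) := by
    intro k
    induction k using Fin.induction with
    | zero => intro _; left; rfl
    | succ i ih =>
      intro hk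
      right
      by_cases hi : τ ≤ t i.castSucc
      · rcases ih hi with h | h
        · refine ⟨i, ?_, hk⟩
          rw [h]; exact h1
        · exact h
      · exact ⟨i, (not_le.mp hi).le, hk⟩
  rcases key (Fin.last N) h2 with h | h
  · rw [h] at h0N; exact absurd h0N (lt_irrefl _)
  · exact h

lemma sum_delta {N : ℕ} (t : Fin (N + 1) → ℝ) :
    ∑ i : Fin N, (t i.succ - t i.castSucc) = t (Fin.last N) - t 0 := by
  induction N with
  | zero => simp
  | succ n ih =>
    rw [Fin.sum_univ_castSucc]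
    have := ih (fun j => t j.castSucc)
    simp only [Fin.succ_castSucc] at this ⊢
    rw [this]
    simp

lemma sum_integral_cells {N : ℕ} (t : Fin (N + 1) → ℝ) (f : ℝ → ℝ)
    (hf : ∀ i j, IntervalIntegrable f volume (t i) (t j)) :
    ∑ i : Fin N, ∫ x in t i.castSucc..t i.succ, f x = ∫ x in t 0..t (Fin.last N), f x := by
  induction N with
  | zero => simp
  | succ n ih =>
    rw [Fin.sum_univ_castSucc]
    have := ih (fun j => t j.castSucc) (fun i j => hf _ _)
    simp only [Fin.succ_castSucc] at this ⊢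
    rw [this]
    have h := intervalIntegral.integral_add_adjacent_intervals
      (hf (Fin.castSucc 0) (Fin.castSucc (Fin.last n))) (hf (Fin.castSucc (Fin.last n)) (Fin.last n).succ)
    simpa using h

/-- Riemann sum estimate for a tagged partition. -/
lemma riemann_le {N : ℕ} (t : Fin (N + 1) → ℝ) (c : Fin N → ℝ) (ht : Monotone t) (f : ℝ → ℝ)
    (hf : ContinuousOn f (Set.Icc (t 0) (t (Fin.last N)))) (ε : ℝ)
    (hε : ∀ i : Fin N, ∀ x ∈ Set.Icc (t i.castSucc) (t i.succ), |f (c i) - f x| ≤ ε) :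
    |∑ i : Fin N, (t i.succ - t i.castSucc) * f (c i) - ∫ x in t 0..t (Fin.last N), f x|
      ≤ ε * (t (Fin.last N) - t 0) := by
  have hsub : ∀ i j : Fin (N + 1), Set.uIcc (t i) (t j) ⊆ Set.Icc (t 0) (t (Fin.last N)) := by
    intro i j
    apply Set.uIcc_subset_Icc
    · exact ⟨ht (Fin.zero_le _), ht (Fin.le_last _)⟩
    · exact ⟨ht (Fin.zero_le _), ht (Fin.le_last _)⟩
  have hint : ∀ i j, IntervalIntegrable f volume (t i) (t j) := fun i j =>
    (hf.mono (hsub i j)).intervalIntegrable
  rw [← sum_integral_cells t f hint, ← Finset.sum_sub_distrib, ← sum_delta t, Finset.mul_sum]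
  refine (Finset.abs_sum_le_sum_abs _ _).trans (Finset.sum_le_sum fun i _ => ?_)
  have hle : t i.castSucc ≤ t i.succ := ht (Fin.castSucc_lt_succ).le
  have h1 : (t i.succ - t i.castSucc) * f (c i) = ∫ x in t i.castSucc..t i.succ, f (c i) := by
    simp
  rw [h1, ← intervalIntegral.integral_sub (by simp) (hint _ _)]
  have := intervalIntegral.norm_integral_le_of_norm_le_const (a := t i.castSucc) (b := t i.succ)
    (f := fun x => f (c i) - f x) (C := ε) (by
      intro x hx
      rw [Set.uIoc_of_le hle] at hx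
      exact hε i x ⟨hx.1.le, hx.2⟩)
  rw [Real.norm_eq_abs, abs_of_nonneg (sub_nonneg.mpr hle)] at this
  exact this

end Crest.Agent.helper4
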