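import Mathlib
import Crest.Agent.Lib_helper4.Partition

set_option autoImplicit false
open MeasureTheory

namespace Crest.Agent.helper4

lemma upper_pt (R D Rm θ : ℝ) (hR0 : 0 ≤ R) (hRm : R ≤ Rm) (hD : 1 ≤ D) (hθ : 0 ≤ θ) :
    (R + θ) ^ 2 / (2 * D) ≤ R ^ 2 / (2 * D) + (2 * Rm * θ + θ ^ 2) / 2 := by
  have hD0 : 0 < D := by linarith
  have h1 : (R + θ) ^ 2 / (2 * D) = R ^ 2 / (2 * D) + (2 * R * θ + θ ^ 2) / (2 * D) := by
    field_simp; ring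
  rw [h1]
  have h2 : (2 * R * θ + θ ^ 2) / (2 * D) ≤ (2 * Rm * θ + θ ^ 2) / 2 := by
    have hRm0 : 0 ≤ Rm := hR0.trans hRm
    apply div_le_div₀ (by positivity) _ (by norm_num) (by linarith)
    nlinarith
  linarith

lemma lower_pt (R D Rm ω : ℝ) (hR0 : 0 ≤ R) (hRm : R ≤ Rm) (hD : 1 ≤ D) (hω : 0 ≤ ω) :
    R ^ 2 / (2 * D) - Rm * ω ≤ (max (R - ω) 0) ^ 2 / (2 * D) := by
  have hD0 : 0 < D := by linarith
  have h1 : R ^ 2 - 2 * R * ω ≤ (max (R - ω) 0) ^ 2 := by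
    rcases le_total ω R with h | h
    · rw [max_eq_left (by linarith)]; nlinarith
    · rw [max_eq_right (by linarith)]; nlinarith
  have h2 : (R ^ 2 - 2 * R * ω) / (2 * D) ≤ (max (R - ω) 0) ^ 2 / (2 * D) :=
    div_le_div_of_nonneg_right h1 (by positivity)
  have h3 : (R ^ 2 - 2 * R * ω) / (2 * D) = R ^ 2 / (2 * D) - R * ω / D := by
    field_simp
  have h4 : R * ω / D ≤ Rm * ω := by
    rw [div_le_iff₀ hD0]
    have : R * ω ≤ Rm * ω := mul_le_mul_of_nonneg_right hRm hω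
    have h5 : 0 ≤ Rm * ω := mul_nonneg (hR0.trans hRm) hω
    nlinarith
  linarith

lemma sandwich_sum {N : ℕ} (t : Fin (N + 1) → ℝ) (c : Fin N → ℝ) (ht : Monotone t)
    (R D : ℝ → ℝ) (Rm θ ω κ ε0 I : ℝ) (hκ : 0 ≤ κ) (hθ : 0 ≤ θ) (hω : 0 ≤ ω)
    (hR0 : ∀ i, 0 ≤ R (c i)) (hRm : ∀ i, R (c i) ≤ Rm) (hD : ∀ i, 1 ≤ D (c i))
    (hI : |∑ i : Fin N, (t i.succ - t i.castSucc) * (R (c i) ^ 2 / (2 * D (c i))) - I|
      ≤ ε0 * (t (Fin.last N) - t 0))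
    (A : Fin N → ℝ)
    (hlow : ∀ i, κ * ((t i.succ - t i.castSucc) * ((max (R (c i) - ω) 0) ^ 2 / (2 * D (c i)))) ≤ A i)
    (hup : ∀ i, A i ≤ κ * ((t i.succ - t i.castSucc) * ((R (c i) + θ) ^ 2 / (2 * D (c i))))) :
    |∑ i, A i - κ * I| ≤
      κ * (t (Fin.last N) - t 0) * (ε0 + max ((2 * Rm * θ + θ ^ 2) / 2) (Rm * ω)) := by
  set S := ∑ i : Fin N, (t i.succ - t i.castSucc) * (R (c i) ^ 2 / (2 * D (c i))) with hS
  set T := t (Fin.last N) - t 0 with hT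
  have hΔ : ∀ i : Fin N, 0 ≤ t i.succ - t i.castSucc := fun i =>
    sub_nonneg.mpr (ht (Fin.castSucc_lt_succ).le)
  have hT0 : 0 ≤ T := sub_nonneg.mpr (ht (Fin.zero_le _))
  have hU : ∑ i, A i ≤ κ * (S + T * ((2 * Rm * θ + θ ^ 2) / 2)) := by
    rw [hS, hT, ← sum_delta t, Finset.sum_mul, ← Finset.sum_add_distrib, Finset.mul_sum]
    refine Finset.sum_le_sum fun i _ => (hup i).trans ?_
    apply mul_le_mul_of_nonneg_left _ hκ
    rw [← mul_add]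
    exact mul_le_mul_of_nonneg_left (upper_pt _ _ _ _ (hR0 i) (hRm i) (hD i) hθ) (hΔ i)
  have hLo : κ * (S - T * (Rm * ω)) ≤ ∑ i, A i := by
    rw [hS, hT, ← sum_delta t, Finset.sum_mul, ← Finset.sum_sub_distrib, Finset.mul_sum]
    refine Finset.sum_le_sum fun i _ => le_trans ?_ (hlow i)
    apply mul_le_mul_of_nonneg_left _ hκ
    rw [← mul_sub]
    exact mul_le_mul_of_nonneg_left (lower_pt _ _ _ _ (hR0 i) (hRm i) (hD i) hω) (hΔ i)
  rw [abs_le] at hI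
  set M := max ((2 * Rm * θ + θ ^ 2) / 2) (Rm * ω) with hM
  have hM1 : (2 * Rm * θ + θ ^ 2) / 2 ≤ M := le_max_left _ _
  have hM2 : Rm * ω ≤ M := le_max_right _ _
  have hU' : κ * (S + T * ((2 * Rm * θ + θ ^ 2) / 2)) ≤ κ * (I + ε0 * T + T * M) := by
    apply mul_le_mul_of_nonneg_left _ hκ
    have := mul_le_mul_of_nonneg_left hM1 hT0
    linarith [hI.2]
  have hLo' : κ * (I - ε0 * T - T * M) ≤ κ * (S - T * (Rm * ω)) := by
    apply mul_le_mul_of_nonneg_left _ hκ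
    have := mul_le_mul_of_nonneg_left hM2 hT0
    linarith [hI.1]
  rw [abs_le]
  constructor
  · have : κ * (I - ε0 * T - T * M) = κ * I - κ * T * (ε0 + M) := by ring
    linarith
  · have : κ * (I + ε0 * T + T * M) = κ * I + κ * T * (ε0 + M) := by ring
    linarith

end Crest.Agent.helper4
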