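import Mathlib
import Crest.Agent.Lib_helper4.Cell
import Crest.Agent.Lib_helper4.Estimate

set_option autoImplicit false
open MeasureTheory

namespace Crest.Agent.helper4

lemma gram_pos_of_linearIndependent (a b : E3) (hab : LinearIndependent ℝ ![a, b]) :
    0 < gram a b := by
  rcases (gram_nonneg a b).lt_or_eq with h | h
  · exact h
  · exfalso
    rw [LinearIndependent.pair_iff] at hab
    have hz : ‖(‖b‖ ^ 2) • a + (-(inner ℝ a b)) • b‖ ^ 2 = ‖b‖ ^ 2 * gram a b := by
      unfold gram
      rw [← real_inner_self_eq_norm_sq]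
      simp only [inner_add_left, inner_add_right, inner_smul_left, inner_smul_right,
        RCLike.conj_to_real, real_inner_self_eq_norm_sq]
      rw [real_inner_comm a b]
      ring
    rw [← h, mul_zero] at hz
    have hz' : (‖b‖ ^ 2) • a + (-(inner ℝ a b)) • b = 0 := by
      have : ‖(‖b‖ ^ 2) • a + (-(inner ℝ a b)) • b‖ = 0 := by
        exact pow_eq_zero_iff (by norm_num) |>.mp hz
      exact norm_eq_zero.mp this
    have hb0 : ‖b‖ ^ 2 = 0 := (hab _ _ hz').1
    have hb : b = 0 := by
      have : ‖b‖ = 0 := pow_eq_zero_iff (by norm_num) |>.mp hb0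
      exact norm_eq_zero.mp this
    have := hab 0 1 (by rw [hb]; simp)
    exact one_ne_zero this.2

end Crest.Agent.helper4
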